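import Mathlib

/-!
# Rates of a perturbed adjoint equation

`w' = -A w + r` with `|r| ≤ ε |w|`, against the cocycle `D' = A D`, `A` symmetric: if
`e^{a₁ T} |v| ≤ |D_T v| ≤ e^{b₁ T} |v|` on every block of length `T`, then on every block `w` is
contracted at a rate between `a` and `b`, for all `a < a₁`, `b₁ < b`, if `ε` is small.
-/

open Set Filter Topology Metric

noncomputable section

namespace Vale.Agent.P207.H517

section block

variable {E : Type*} [NormedAddCommGroup E]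

/-- crude growth -/
theorem norm_le_exp [NormedSpace ℝ E] {w w' : ℝ → E} {K T : ℝ}
    (hw : ∀ s ∈ Icc (0 : ℝ) T, HasDerivAt w (w' s) s)
    (hb : ∀ s ∈ Icc (0 : ℝ) T, ‖w' s‖ ≤ K * ‖w s‖) :
    ∀ s ∈ Icc (0 : ℝ) T, ‖w s‖ ≤ Real.exp (K * s) * ‖w 0‖ := by
  intro s hs
  have h := norm_le_gronwallBound_of_norm_deriv_right_le (f := w) (f' := w') (δ := ‖w 0‖)
    (K := K) (ε := 0) (a := 0) (b := T)
    (fun r hr => (hw r hr).continuousAt.continuousWithinAt)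
    (fun r hr => (hw r ⟨hr.1, hr.2.le⟩).hasDerivWithinAt) le_rfl
    (fun r hr => by rw [add_zero]; exact hb r ⟨hr.1, hr.2.le⟩) s hs
  rw [gronwallBound_ε0, sub_zero] at h
  linarith [mul_comm ‖w 0‖ (Real.exp (K * s))]

variable [InnerProductSpace ℝ E]

/-- the pairing is almost constant on a block -/
theorem pair_block {A : ℝ → E →L[ℝ] E} {D : ℝ → E →L[ℝ] E} {w : ℝ → E} {K₀ T ε : ℝ}
    (hT : 0 ≤ T) (hε0 : 0 ≤ ε) (hε : ε ≤ 1)
    (hA : ∀ s, ‖A s‖ ≤ K₀) (hsym : ∀ s u v, inner ℝ (A s u) v = inner ℝ u (A s v))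
    (hD : ∀ s, HasDerivAt D (A s ∘L D s) s) (hD0 : D 0 = ContinuousLinearMap.id ℝ E)
    (hw : ∀ s ∈ Icc (0 : ℝ) T, ∃ w', HasDerivAt w w' s ∧ ‖w' + A s (w s)‖ ≤ ε * ‖w s‖) (v : E) :
    |inner ℝ (w T) (D T v) - inner ℝ (w 0) v| ≤
      ε * (T * Real.exp ((2 * K₀ + 1) * T)) * ‖w 0‖ * ‖v‖ := by
  have hK : 0 ≤ K₀ := (norm_nonneg _).trans (hA 0)
  choose! w' hw1 hw2 using hw
  have h1 : ∀ s ∈ Icc (0 : ℝ) T, ‖w s‖ ≤ Real.exp ((K₀ + 1) * s) * ‖w 0‖ := by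
    refine norm_le_exp hw1 fun s hs => ?_
    have h2 : w' s = (w' s + A s (w s)) - A s (w s) := by abel
    calc ‖w' s‖ = ‖(w' s + A s (w s)) - A s (w s)‖ := by rw [← h2]
      _ ≤ ‖w' s + A s (w s)‖ + ‖A s (w s)‖ := norm_sub_le _ _
      _ ≤ ε * ‖w s‖ + K₀ * ‖w s‖ := by
          refine add_le_add (hw2 s hs) ((A s).le_opNorm_of_le le_rfl |>.trans ?_)
          exact mul_le_mul_of_nonneg_right (hA s) (norm_nonneg _)
      _ ≤ (K₀ + 1) * ‖w s‖ := by nlinarith [norm_nonneg (w s)]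
  have hDv : ∀ s, HasDerivAt (fun s => D s v) (A s (D s v)) s := fun s =>
    (ContinuousLinearMap.apply ℝ E v).hasFDerivAt.comp_hasDerivAt s (hD s)
  have h2 : ∀ s ∈ Icc (0 : ℝ) T, ‖D s v‖ ≤ Real.exp (K₀ * s) * ‖v‖ := by
    have h3 := norm_le_exp (w := fun s => D s v) (w' := fun s => A s (D s v)) (K := K₀) (T := T)
      (fun s _ => hDv s) (fun s _ => ((A s).le_opNorm_of_le le_rfl).trans
        (mul_le_mul_of_nonneg_right (hA s) (norm_nonneg _)))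
    simpa [hD0] using h3
  have hf : ∀ s ∈ Icc (0 : ℝ) T, HasDerivWithinAt (fun s => inner ℝ (w s) (D s v))
      (inner ℝ (w s) (A s (D s v)) + inner ℝ (w' s) (D s v)) (Icc 0 T) s := fun s hs =>
    ((hw1 s hs).inner ℝ (hDv s)).hasDerivWithinAt
  have hb : ∀ s ∈ Ico (0 : ℝ) T, ‖inner ℝ (w s) (A s (D s v)) + inner ℝ (w' s) (D s v)‖ ≤
      ε * Real.exp ((2 * K₀ + 1) * T) * ‖w 0‖ * ‖v‖ := by
    intro s hs
    have hs' : s ∈ Icc (0 : ℝ) T := ⟨hs.1, hs.2.le⟩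
    have h3 : inner ℝ (w s) (A s (D s v)) + inner ℝ (w' s) (D s v) =
        inner ℝ (w' s + A s (w s)) (D s v) := by
      rw [← hsym, inner_add_left, add_comm]
    rw [h3, Real.norm_eq_abs]
    calc |inner ℝ (w' s + A s (w s)) (D s v)| ≤ ‖w' s + A s (w s)‖ * ‖D s v‖ :=
          abs_real_inner_le_norm _ _
      _ ≤ (ε * (Real.exp ((K₀ + 1) * s) * ‖w 0‖)) * (Real.exp (K₀ * s) * ‖v‖) := by
          refine mul_le_mul ((hw2 s hs').trans ?_) (h2 s hs') (norm_nonneg _) (by positivity)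
          exact mul_le_mul_of_nonneg_left (h1 s hs') hε0
      _ = ε * (Real.exp ((K₀ + 1) * s) * Real.exp (K₀ * s)) * ‖w 0‖ * ‖v‖ := by ring
      _ = ε * Real.exp ((2 * K₀ + 1) * s) * ‖w 0‖ * ‖v‖ := by
          rw [← Real.exp_add]
          congr 4
          ring_nf
      _ ≤ ε * Real.exp ((2 * K₀ + 1) * T) * ‖w 0‖ * ‖v‖ := by
          have h4 : Real.exp ((2 * K₀ + 1) * s) ≤ Real.exp ((2 * K₀ + 1) * T) :=
            Real.exp_le_exp.2 (mul_le_mul_of_nonneg_left hs.2.le (by linarith))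
          gcongr
  have h5 := norm_image_sub_le_of_norm_deriv_le_segment' hf hb T (right_mem_Icc.2 hT)
  simp only [hD0, ContinuousLinearMap.id_apply, Real.norm_eq_abs] at h5
  calc |inner ℝ (w T) (D T v) - inner ℝ (w 0) v|
      ≤ ε * Real.exp ((2 * K₀ + 1) * T) * ‖w 0‖ * ‖v‖ * (T - 0) := h5
    _ = _ := by ring

/-- the two rates on a block -/
theorem block [FiniteDimensional ℝ E] {A : ℝ → E →L[ℝ] E} {D : ℝ → E →L[ℝ] E} {w : ℝ → E}
    {K₀ T ε a₁ b₁ : ℝ} (hT : 0 ≤ T) (hε0 : 0 ≤ ε) (hε : ε ≤ 1)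
    (hA : ∀ s, ‖A s‖ ≤ K₀) (hsym : ∀ s u v, inner ℝ (A s u) v = inner ℝ u (A s v))
    (hD : ∀ s, HasDerivAt D (A s ∘L D s) s) (hD0 : D 0 = ContinuousLinearMap.id ℝ E)
    (hlo : ∀ v, Real.exp (a₁ * T) * ‖v‖ ≤ ‖D T v‖) (hhi : ∀ v, ‖D T v‖ ≤ Real.exp (b₁ * T) * ‖v‖)
    (hw : ∀ s ∈ Icc (0 : ℝ) T, ∃ w', HasDerivAt w w' s ∧ ‖w' + A s (w s)‖ ≤ ε * ‖w s‖) :
    ‖w T‖ ≤ (1 + ε * (T * Real.exp ((2 * K₀ + 1) * T))) * Real.exp (-(a₁ * T)) * ‖w 0‖ ∧
      (1 - ε * (T * Real.exp ((2 * K₀ + 1) * T))) * ‖w 0‖ ≤ Real.exp (b₁ * T) * ‖w T‖ := by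
  set K : ℝ := T * Real.exp ((2 * K₀ + 1) * T) with hKdef
  have hK : 0 ≤ K := by positivity
  have h0 := pair_block hT hε0 hε hA hsym hD hD0 hw
  rw [← hKdef] at h0
  constructor
  · have hinj : Function.Injective (D T : E →ₗ[ℝ] E) := by
      rw [injective_iff_map_eq_zero]
      intro v hv
      have h1 := hlo v
      have h2 : D T v = 0 := hv
      rw [h2, norm_zero] at h1
      have h3 : ‖v‖ ≤ 0 := by
        by_contra h4
        push Not at h4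
        have := mul_pos (Real.exp_pos (a₁ * T)) h4
        linarith
      exact norm_le_zero_iff.1 h3
    obtain ⟨v, hv⟩ := (LinearMap.injective_iff_surjective.1 hinj) (w T)
    have hv' : D T v = w T := hv
    have h1 := h0 v
    rw [hv', real_inner_self_eq_norm_sq] at h1
    have h2 : Real.exp (a₁ * T) * ‖v‖ ≤ ‖w T‖ := by rw [← hv']; exact hlo v
    have h3 : ‖v‖ ≤ Real.exp (-(a₁ * T)) * ‖w T‖ := by
      rw [Real.exp_neg, ← div_eq_inv_mul, le_div_iff₀ (Real.exp_pos _), mul_comm]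
      exact h2
    have h4 : ‖w T‖ ^ 2 ≤ (1 + ε * K) * ‖w 0‖ * ‖v‖ := by
      have h5 := (abs_le.1 h1).2
      have h6 := real_inner_le_norm (w 0) v
      nlinarith
    by_cases hz : ‖w T‖ = 0
    · rw [hz]; positivity
    · have hpos : 0 < ‖w T‖ := lt_of_le_of_ne (norm_nonneg _) (Ne.symm hz)
      have h7 : ‖w T‖ * ‖w T‖ ≤
          ((1 + ε * K) * Real.exp (-(a₁ * T)) * ‖w 0‖) * ‖w T‖ := by
        calc ‖w T‖ * ‖w T‖ = ‖w T‖ ^ 2 := by ring
          _ ≤ (1 + ε * K) * ‖w 0‖ * ‖v‖ := h4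
          _ ≤ (1 + ε * K) * ‖w 0‖ * (Real.exp (-(a₁ * T)) * ‖w T‖) :=
              mul_le_mul_of_nonneg_left h3 (by positivity)
          _ = _ := by ring
      exact le_of_mul_le_mul_right h7 hpos
  · have h1 := h0 (w 0)
    rw [real_inner_self_eq_norm_sq] at h1
    have h2 := (abs_le.1 h1).1
    have h3 : inner ℝ (w T) (D T (w 0)) ≤ ‖w T‖ * (Real.exp (b₁ * T) * ‖w 0‖) :=
      (real_inner_le_norm _ _).trans (mul_le_mul_of_nonneg_left (hhi _) (norm_nonneg _))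
    by_cases hz : ‖w 0‖ = 0
    · rw [hz, mul_zero]; positivity
    · have hpos : 0 < ‖w 0‖ := lt_of_le_of_ne (norm_nonneg _) (Ne.symm hz)
      have h7 : ((1 - ε * K) * ‖w 0‖) * ‖w 0‖ ≤ (Real.exp (b₁ * T) * ‖w T‖) * ‖w 0‖ := by
        nlinarith
      exact le_of_mul_le_mul_right h7 hpos

/-- the choice of `ε` -/
theorem exists_eps {K T a a₁ b b₁ : ℝ} (hT : 0 < T) (ha : a < a₁) (hb : b₁ < b) :
    ∃ ε : ℝ, 0 < ε ∧ ε ≤ 1 ∧ (1 + ε * K) * Real.exp (-(a₁ * T)) ≤ Real.exp (-(a * T)) ∧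
      Real.exp (b₁ * T) ≤ (1 - ε * K) * Real.exp (b * T) := by
  have h1 : Tendsto (fun ε : ℝ => (1 + ε * K) * Real.exp (-(a₁ * T))) (𝓝[>] 0)
      (𝓝 ((1 + 0 * K) * Real.exp (-(a₁ * T)))) :=
    (Continuous.tendsto (by fun_prop) 0).mono_left nhdsWithin_le_nhds
  have h2 : Tendsto (fun ε : ℝ => (1 - ε * K) * Real.exp (b * T)) (𝓝[>] 0)
      (𝓝 ((1 - 0 * K) * Real.exp (b * T))) :=
    (Continuous.tendsto (by fun_prop) 0).mono_left nhdsWithin_le_nhds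
  have e1 : (1 + 0 * K) * Real.exp (-(a₁ * T)) < Real.exp (-(a * T)) := by
    rw [zero_mul, add_zero, one_mul]
    exact Real.exp_lt_exp.2 (by nlinarith)
  have e2 : Real.exp (b₁ * T) < (1 - 0 * K) * Real.exp (b * T) := by
    rw [zero_mul, sub_zero, one_mul]
    exact Real.exp_lt_exp.2 (by nlinarith)
  have h3 : ∀ᶠ ε : ℝ in 𝓝[>] 0, ε ≤ 1 :=
    nhdsWithin_le_nhds (Iic_mem_nhds (by norm_num))
  obtain ⟨ε, h4, h5, h6, h7⟩ := ((h1.eventually_lt_const e1).and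
    ((h2.eventually_const_lt e2).and (h3.and self_mem_nhdsWithin))).exists
  exact ⟨ε, h7, h6, h4.le, h5.le⟩

/-- **the block estimate**: there is `ε` which depends only on the constants -/
theorem exists_block [FiniteDimensional ℝ E] {K₀ T a a₁ b b₁ : ℝ} (hT : 0 < T) (ha : a < a₁)
    (hb : b₁ < b) : ∃ ε : ℝ, 0 < ε ∧ ∀ (A D : ℝ → E →L[ℝ] E) (w : ℝ → E),
    (∀ s, ‖A s‖ ≤ K₀) → (∀ s u v, inner ℝ (A s u) v = inner ℝ u (A s v)) →
    (∀ s, HasDerivAt D (A s ∘L D s) s) → D 0 = ContinuousLinearMap.id ℝ E →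
    (∀ v, Real.exp (a₁ * T) * ‖v‖ ≤ ‖D T v‖) → (∀ v, ‖D T v‖ ≤ Real.exp (b₁ * T) * ‖v‖) →
    (∀ s ∈ Icc (0 : ℝ) T, ∃ w', HasDerivAt w w' s ∧ ‖w' + A s (w s)‖ ≤ ε * ‖w s‖) →
    ‖w T‖ ≤ Real.exp (-(a * T)) * ‖w 0‖ ∧ ‖w 0‖ ≤ Real.exp (b * T) * ‖w T‖ := by
  obtain ⟨ε, h0, h1, h2, h3⟩ := exists_eps (K := T * Real.exp ((2 * K₀ + 1) * T)) hT ha hb
  refine ⟨ε, h0, fun A D w hA hsym hD hD0 hlo hhi hw => ?_⟩
  obtain ⟨h4, h5⟩ := block hT.le h0.le h1 hA hsym hD hD0 hlo hhi hw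
  refine ⟨h4.trans (mul_le_mul_of_nonneg_right h2 (norm_nonneg _)), ?_⟩
  have h6 : Real.exp (b₁ * T) * ‖w 0‖ ≤ Real.exp (b₁ * T) * (Real.exp (b * T) * ‖w T‖) := by
    calc Real.exp (b₁ * T) * ‖w 0‖
        ≤ ((1 - ε * (T * Real.exp ((2 * K₀ + 1) * T))) * Real.exp (b * T)) * ‖w 0‖ :=
          mul_le_mul_of_nonneg_right h3 (norm_nonneg _)
      _ = Real.exp (b * T) * ((1 - ε * (T * Real.exp ((2 * K₀ + 1) * T))) * ‖w 0‖) := by ring
      _ ≤ Real.exp (b * T) * (Real.exp (b₁ * T) * ‖w T‖) :=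
          mul_le_mul_of_nonneg_left h5 (Real.exp_pos _).le
      _ = _ := by ring
  exact le_of_mul_le_mul_left h6 (Real.exp_pos _)

end block

/-! ### many blocks -/

/-- forward -/
theorem fwd_num {W : ℝ → ℝ} {a b T S₀ C₀ : ℝ} (hT : 0 < T) (hS : 0 ≤ S₀) (ha : 0 ≤ a)
    (hb : 0 ≤ b) (hC : 1 ≤ C₀) (hW : ∀ s, 0 ≤ W s)
    (h1 : ∀ s, S₀ ≤ s → W (s + T) ≤ Real.exp (-(a * T)) * W s ∧
      W s ≤ Real.exp (b * T) * W (s + T))
    (h2 : ∀ s, 0 ≤ s → ∀ r, 0 ≤ r → r ≤ T + S₀ → W (s + r) ≤ C₀ * W s ∧ W s ≤ C₀ * W (s + r)) :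
    ∀ t, 0 ≤ t → W t ≤ C₀ * C₀ * Real.exp (a * (T + S₀)) * Real.exp (-(a * t)) * W 0 ∧
      W 0 ≤ C₀ * C₀ * Real.exp (b * t) * W t := by
  have hn : ∀ n : ℕ, W (S₀ + n * T) ≤ Real.exp (-(a * (n * T))) * W S₀ ∧
      W S₀ ≤ Real.exp (b * (n * T)) * W (S₀ + n * T) := by
    intro n
    induction n with
    | zero => simp
    | succ n ih =>
      have h3 : S₀ ≤ S₀ + n * T := by
        have : 0 ≤ (n : ℝ) * T := by positivity
        linarith
      obtain ⟨h4, h5⟩ := h1 _ h3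
      have e1 : S₀ + ((n + 1 : ℕ) : ℝ) * T = S₀ + n * T + T := by push_cast; ring
      have e2 : Real.exp (-(a * (((n + 1 : ℕ) : ℝ) * T))) =
          Real.exp (-(a * T)) * Real.exp (-(a * (n * T))) := by
        rw [← Real.exp_add]; congr 1; push_cast; ring
      have e3 : Real.exp (b * (((n + 1 : ℕ) : ℝ) * T)) =
          Real.exp (b * (n * T)) * Real.exp (b * T) := by
        rw [← Real.exp_add]; congr 1; push_cast; ring
      rw [e1, e2, e3]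
      refine ⟨h4.trans ?_, ih.2.trans ?_⟩
      · rw [mul_assoc]
        exact mul_le_mul_of_nonneg_left ih.1 (Real.exp_pos _).le
      · rw [mul_assoc]
        exact mul_le_mul_of_nonneg_left h5 (Real.exp_pos _).le
  intro t ht
  have hW0 := hW 0
  have hWt := hW t
  rcases le_total t S₀ with hts | hts
  · obtain ⟨h3, h4⟩ := h2 0 le_rfl t ht (by linarith)
    rw [zero_add] at h3 h4
    have e1 : 1 ≤ Real.exp (a * (T + S₀)) * Real.exp (-(a * t)) := by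
      rw [← Real.exp_add]
      exact Real.one_le_exp (by nlinarith)
    have e2 : 1 ≤ Real.exp (b * t) := Real.one_le_exp (by positivity)
    constructor
    · calc W t ≤ C₀ * W 0 := h3
        _ = C₀ * 1 * 1 * W 0 := by ring
        _ ≤ C₀ * C₀ * (Real.exp (a * (T + S₀)) * Real.exp (-(a * t))) * W 0 := by gcongr
        _ = _ := by ring
    · calc W 0 ≤ C₀ * W t := h4
        _ = C₀ * 1 * 1 * W t := by ring
        _ ≤ C₀ * C₀ * Real.exp (b * t) * W t := by gcongr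
  · set n : ℕ := ⌊(t - S₀) / T⌋₊ with hndef
    have hq : 0 ≤ (t - S₀) / T := div_nonneg (by linarith) hT.le
    have h3 : (n : ℝ) * T ≤ t - S₀ := by
      have := Nat.floor_le hq
      rwa [← hndef, le_div_iff₀ hT] at this
    have h4 : t - S₀ < (n : ℝ) * T + T := by
      have := Nat.lt_floor_add_one ((t - S₀) / T)
      rw [← hndef, div_lt_iff₀ hT] at this
      linarith
    have hnT : 0 ≤ (n : ℝ) * T := by positivity
    obtain ⟨h5, h6⟩ := hn n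
    obtain ⟨h7, h8⟩ := h2 0 le_rfl S₀ hS (by linarith)
    rw [zero_add] at h7 h8
    obtain ⟨h9, h10⟩ := h2 (S₀ + n * T) (by linarith) (t - (S₀ + n * T)) (by linarith)
      (by linarith)
    rw [add_sub_cancel] at h9 h10
    constructor
    · calc W t ≤ C₀ * W (S₀ + n * T) := h9
        _ ≤ C₀ * (Real.exp (-(a * (n * T))) * (C₀ * W 0)) := by
            gcongr
            exact h5.trans (mul_le_mul_of_nonneg_left h7 (Real.exp_pos _).le)
        _ = C₀ * C₀ * Real.exp (-(a * (n * T))) * W 0 := by ring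
        _ ≤ C₀ * C₀ * (Real.exp (a * (T + S₀)) * Real.exp (-(a * t))) * W 0 := by
            rw [← Real.exp_add]
            gcongr
            nlinarith
        _ = _ := by ring
    · calc W 0 ≤ C₀ * W S₀ := h8
        _ ≤ C₀ * (Real.exp (b * (n * T)) * (C₀ * W t)) := by
            gcongr
            exact h6.trans (mul_le_mul_of_nonneg_left h10 (Real.exp_pos _).le)
        _ = C₀ * C₀ * Real.exp (b * (n * T)) * W t := by ring
        _ ≤ C₀ * C₀ * Real.exp (b * t) * W t := by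
            gcongr
            nlinarith

/-- backward: `W s` is the size at the time `-s`, `G s` says that the side at the time `-s` is the
right one -/
theorem bwd_num {W : ℝ → ℝ} {G : ℝ → Prop} {b b₀ T δ : ℝ} (hT : 0 < T) (hb : 0 ≤ b)
    (hb₀ : 0 ≤ b₀) (hδ : 0 < δ) (hδ1 : δ ≤ 1) (hW : ∀ s, 0 ≤ W s)
    (h1 : ∀ s, 0 ≤ s → G s → ∀ r, 0 ≤ r → r ≤ T → Real.exp (b₀ * r) * W s < 1 →
      G (s + r) ∧ W (s + r) ≤ 2 * Real.exp (b₀ * r) * W s)
    (h2 : ∀ s, 0 ≤ s → (∀ r, 0 ≤ r → r ≤ T → G (s + r) ∧ W (s + r) ≤ δ) →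
      W (s + T) ≤ Real.exp (b * T) * W s) (hG : G 0) :
    ∀ s, 0 ≤ s → Real.exp (b * s) * W 0 ≤ δ / (2 * Real.exp (b₀ * T)) →
      G s ∧ W s ≤ 2 * Real.exp (b₀ * T) * (Real.exp (b * s) * W 0) := by
  set δ₁ : ℝ := δ / (2 * Real.exp (b₀ * T)) with hδ₁
  have hE := Real.exp_pos (b₀ * T)
  have hδ₁0 : 0 < δ₁ := by positivity
  have hδ₁' : 2 * Real.exp (b₀ * T) * δ₁ = δ := by
    rw [hδ₁]; field_simp
  -- small steps from a small point
  have hs1 : ∀ s, 0 ≤ s → G s → W s ≤ δ₁ → ∀ r, 0 ≤ r → r ≤ T → G (s + r) ∧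
      W (s + r) ≤ 2 * Real.exp (b₀ * T) * W s ∧ W (s + r) ≤ δ := by
    intro s hs hGs hWs r hr hrT
    have h3 : Real.exp (b₀ * r) ≤ Real.exp (b₀ * T) :=
      Real.exp_le_exp.2 (mul_le_mul_of_nonneg_left hrT hb₀)
    have h4 : Real.exp (b₀ * r) * W s ≤ Real.exp (b₀ * T) * δ₁ :=
      mul_le_mul h3 hWs (hW s) hE.le
    obtain ⟨h5, h6⟩ := h1 s hs hGs r hr hrT (by nlinarith)
    have h7 : W (s + r) ≤ 2 * Real.exp (b₀ * T) * W s := by
      refine h6.trans ?_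
      have := mul_le_mul_of_nonneg_right h3 (hW s)
      nlinarith
    refine ⟨h5, h7, h7.trans ?_⟩
    rw [← hδ₁']
    exact mul_le_mul_of_nonneg_left hWs (by positivity)
  have hn : ∀ n : ℕ, Real.exp (b * (n * T)) * W 0 ≤ δ₁ → G (n * T) ∧
      W (n * T) ≤ Real.exp (b * (n * T)) * W 0 := by
    intro n
    induction n with
    | zero => intro _; simp [hG]
    | succ n ih =>
      intro h3
      have e3 : Real.exp (b * (((n + 1 : ℕ) : ℝ) * T)) =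
          Real.exp (b * T) * Real.exp (b * (n * T)) := by
        rw [← Real.exp_add]; congr 1; push_cast; ring
      have e1 : ((n + 1 : ℕ) : ℝ) * T = n * T + T := by push_cast; ring
      have h4 : Real.exp (b * (n * T)) * W 0 ≤ δ₁ := by
        refine le_trans ?_ h3
        refine mul_le_mul_of_nonneg_right (Real.exp_le_exp.2 ?_) (hW 0)
        rw [e1]
        nlinarith
      obtain ⟨h5, h6⟩ := ih h4
      have h7 : 0 ≤ (n : ℝ) * T := by positivity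
      have h8 := hs1 _ h7 h5 (h6.trans h4)
      have h9 := h2 _ h7 fun r hr hrT => ⟨(h8 r hr hrT).1, (h8 r hr hrT).2.2⟩
      rw [e1] at *
      refine ⟨(h8 T hT.le le_rfl).1, h9.trans ?_⟩
      have e4 : Real.exp (b * (n * T + T)) = Real.exp (b * T) * Real.exp (b * (n * T)) := by
        rw [← Real.exp_add]; congr 1; ring
      rw [e4, mul_assoc]
      exact mul_le_mul_of_nonneg_left h6 (Real.exp_pos _).le
  intro s hs hsm
  set n : ℕ := ⌊s / T⌋₊ with hndef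
  have hq : 0 ≤ s / T := div_nonneg hs hT.le
  have h3 : (n : ℝ) * T ≤ s := by
    have := Nat.floor_le hq
    rwa [← hndef, le_div_iff₀ hT] at this
  have h4 : s < (n : ℝ) * T + T := by
    have := Nat.lt_floor_add_one (s / T)
    rw [← hndef, div_lt_iff₀ hT] at this
    linarith
  have hnT : 0 ≤ (n : ℝ) * T := by positivity
  have h5 : Real.exp (b * (n * T)) * W 0 ≤ Real.exp (b * s) * W 0 :=
    mul_le_mul_of_nonneg_right (Real.exp_le_exp.2 (mul_le_mul_of_nonneg_left h3 hb)) (hW 0)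
  obtain ⟨h6, h7⟩ := hn n (h5.trans hsm)
  obtain ⟨h8, h9, -⟩ := hs1 _ hnT h6 (h7.trans (h5.trans hsm)) (s - n * T) (by linarith)
    (by linarith)
  rw [add_sub_cancel] at h8 h9
  refine ⟨h8, h9.trans ?_⟩
  exact mul_le_mul_of_nonneg_left (h7.trans h5) (by positivity)

end Vale.Agent.P207.H517
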